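import Vale.Agent.P180.R2.H589.Or.Chr
import Mathlib.LinearAlgebra.SpecialLinearGroup

/-!
P180: finite perfect groups `L` with `L / Z(L)` an orthogonal group over a finite field `K`,
`|K| > 9` odd, modulo scalars: the order of `Z(L)` is prime to the characteristic.
-/

set_option linter.all false

namespace Vale.Agent.P180.R2.H589.Or

open Subgroup Module
open LinearMap (BilinForm)
open Vale.Agent.P180.R2.H589.Sch
open Vale.Agent.P180.R2.H589.Sp (SpG mem_SpG SM SM.of_equiv finite_gl)

/-- **From the multiplier to the centre**: if the `p`-part of the multiplier of `G` is trivial and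
`π : G → L / Z(L)` is surjective with kernel of order prime to `p`, then `p` does not divide
`|Z(L)|`. -/
theorem not_dvd_center_of_SM {p : ℕ} [hp : Fact p.Prime] {G : Type} [Group G] [Finite G]
    (h : SM p G) {L : Type} [Group L] [Finite L] (hL : commutator L = ⊤)
    {π : G →* L ⧸ center L} (hπ : Function.Surjective π) (hker : ¬ p ∣ Nat.card π.ker) :
    ¬ p ∣ Nat.card (center L) := by
  intro hd
  obtain ⟨a, ha⟩ := exists_prime_orderOf_dvd_card' p hd
  let E : Subgroup (L × G) := ((QuotientGroup.mk' (center L)).comp (MonoidHom.fst L G)).eqLocus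
    (π.comp (MonoidHom.snd L G))
  have hE : ∀ w : L × G, w ∈ E ↔ QuotientGroup.mk' (center L) w.1 = π w.2 := fun w => Iff.rfl
  let f : E →* G := (MonoidHom.snd L G).comp E.subtype
  let f₁ : E →* L := (MonoidHom.fst L G).comp E.subtype
  have hf : Function.Surjective f := by
    intro g
    obtain ⟨l, hl⟩ := QuotientGroup.mk'_surjective (center L) (π g)
    exact ⟨⟨(l, g), (hE _).mpr hl⟩, rfl⟩
  have hf₁ : Function.Surjective f₁ := by
    intro l
    obtain ⟨g, hg⟩ := hπ (QuotientGroup.mk' (center L) l)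
    exact ⟨⟨(l, g), (hE _).mpr hg.symm⟩, rfl⟩
  have hk : f.ker ≤ center E := by
    intro w hw
    have h1 : (w : L × G).2 = 1 := hw
    have h3 : (w : L × G).1 ∈ center L := by
      have h4 := (hE _).mp w.2
      rw [h1, map_one] at h4
      exact (QuotientGroup.eq_one_iff _).mp h4
    rw [mem_center_iff]
    intro y
    apply Subtype.ext
    refine Prod.ext ?_ ?_
    · exact mem_center_iff.mp h3 (y : L × G).1
    · change (y : L × G).2 * (w : L × G).2 = (w : L × G).2 * (y : L × G).2
      rw [h1, mul_one, one_mul]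
  have h1 : (commutator E).map f₁ = ⊤ := by
    rw [commutator_def, map_commutator, ← MonoidHom.range_eq_map,
      MonoidHom.range_eq_top.mpr hf₁, ← commutator_def, hL]
  obtain ⟨e, he, hea⟩ : (a : L) ∈ (commutator E).map f₁ := by
    rw [h1]
    exact mem_top _
  have hea' : (e : L × G).1 = a := hea
  have h3 : (e : L × G).2 ∈ π.ker := by
    have h4 := (hE _).mp e.2
    rw [hea'] at h4
    rw [MonoidHom.mem_ker, ← h4]
    exact (QuotientGroup.eq_one_iff _).mpr a.2
  have h4 : (e : L × G).2 ^ Nat.card π.ker = 1 := by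
    have := pow_card_eq_one' (x := (⟨_, h3⟩ : π.ker))
    exact congrArg Subtype.val this
  have hap : (a : L) ^ p = 1 := by
    have h5 : a ^ p = 1 := by rw [← ha]; exact pow_orderOf_eq_one a
    exact congrArg Subtype.val h5
  have h5 := h E f hf hk (e ^ Nat.card π.ker) (by
    rw [map_pow]
    exact h4) (Subgroup.pow_mem _ he _) ⟨1, by
    apply Subtype.ext
    rw [pow_one, Subgroup.coe_pow, Subgroup.coe_pow]
    refine Prod.ext ?_ ?_
    · change ((e : L × G).1 ^ Nat.card π.ker) ^ p = 1
      rw [hea', ← pow_mul, mul_comm, pow_mul, hap, one_pow]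
    · change ((e : L × G).2 ^ Nat.card π.ker) ^ p = 1
      rw [h4, one_pow]⟩
  have h6 : a ^ Nat.card π.ker = 1 := by
    apply Subtype.ext
    have h7 := congrArg (fun w : E => (w : L × G).1) h5
    change (e : L × G).1 ^ Nat.card π.ker = 1 at h7
    rw [hea'] at h7
    exact h7
  have h7 := orderOf_dvd_of_pow_eq_one h6
  rw [ha] at h7
  exact hker h7

section Fin

variable {K : Type} [Field K] [Finite K] {E : Type} [AddCommGroup E] [Module K E]
  [Module.Finite K E]

/-- a bilinear form from a function -/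
def mkB {B : E → E → K} (hadd : ∀ x y z, B (x + y) z = B x z + B y z)
    (hsm : ∀ (a : K) x y, B (a • x) y = a * B x y) (hsymm : ∀ x y, B y x = B x y) :
    BilinForm K E :=
  LinearMap.mk₂ K B hadd (fun a x y => by rw [hsm, smul_eq_mul])
    (fun x y z => by rw [← hsymm, hadd, hsymm, hsymm x z])
    (fun a x y => by rw [← hsymm, hsm, hsymm, smul_eq_mul])

omit [Finite K] in
/-- `p`-elements of the centre of `SL(E)` -/
theorem center_pel {p : ℕ} [hp : Fact p.Prime] [CharP K p] {g : SpecialLinearGroup K E}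
    (hg : g ∈ center (SpecialLinearGroup K E)) (h : g ^ p = 1) : g = 1 := by
  obtain ⟨c, hc⟩ : ∃ c : K, ∀ x : E, g x = c • x :=
    ⟨_, fun x => SpecialLinearGroup.mem_center_iff_spec hg x⟩
  have h1 : ∀ (n : ℕ) (x : E), (g ^ n) x = c ^ n • x := by
    intro n
    induction n with
    | zero => intro x; rw [pow_zero, pow_zero, one_smul]; rfl
    | succ n ih =>
      intro x
      have h3 : (g ^ (n + 1)) x = g ((g ^ n) x) := by
        rw [pow_succ']
        rfl
      rw [h3, ih, hc, smul_smul, pow_succ']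
  have h3 : ∀ x : E, g x = x := by
    intro x
    by_cases hx : x = 0
    · rw [hc, hx, smul_zero]
    have h4 := h1 p x
    rw [h] at h4
    have h5 : c ^ p = 1 := by
      have h6 : (c ^ p - 1) • x = 0 := by
        rw [sub_smul, one_smul, ← h4]
        exact sub_self x
      exact sub_eq_zero.mp ((smul_eq_zero.mp h6).resolve_right hx)
    have h6 : (c - 1) ^ p = 0 := by rw [sub_pow_char, h5, one_pow, sub_self]
    have h7 : c = 1 := sub_eq_zero.mp (pow_eq_zero_iff hp.out.ne_zero |>.mp h6)
    rw [hc, h7, one_smul]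
  exact Subtype.ext (LinearEquiv.ext h3)

/-- **Perfect groups with orthogonal quotient**: `|Z(L)|` is prime to `|K|`. -/
theorem coprime_center (hodd : Odd (Nat.card K)) (hK : 9 < Nat.card K) {B : E → E → K}
    (hadd : ∀ x y z, B (x + y) z = B x z + B y z)
    (hsm : ∀ (a : K) x y, B (a • x) y = a * B x y) (hsymm : ∀ x y, B y x = B x y)
    (hnd : ∀ x, (∀ y, B x y = 0) → x = 0) {X : Subgroup (SpecialLinearGroup K E)}
    (hX : ∀ g ∈ X, ∀ x y, B (g x) (g y) = B x y)
    (hsq : ∀ g : SpecialLinearGroup K E, (∀ x y, B (g x) (g y) = B x y) → g ^ 2 ∈ X)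
    {L : Type} [Group L] [Finite L] (hL : commutator L = ⊤) (π : X →* L ⧸ center L)
    (hπ : Function.Surjective π)
    (hker : ∀ x : X, π x = 1 → x.1 ∈ center (SpecialLinearGroup K E)) :
    (Nat.card K).Coprime (Nat.card (center L)) := by
  haveI : Finite E := Module.finite_of_finite K
  haveI : Finite (E ≃ₗ[K] E) := finite_gl
  haveI : Fintype K := Fintype.ofFinite K
  obtain ⟨p, hpc⟩ := CharP.exists K
  obtain ⟨n, hp, hn⟩ := FiniteField.card K p
  haveI : Fact p.Prime := ⟨hp⟩
  rw [← Nat.card_eq_fintype_card] at hn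
  have hp2 : Odd p := by
    rcases hp.eq_two_or_odd' with h | h
    · exfalso
      rw [hn, h] at hodd
      have h3 : Even (2 ^ (n : ℕ)) := Nat.even_pow.mpr ⟨even_two, n.ne_zero⟩
      exact (Nat.not_even_iff_odd.mpr hodd) h3
    · exact h
  have h2 : (2 : K) ≠ 0 := by
    intro h
    have h3 : p ∣ 2 := by
      rw [← CharP.cast_eq_zero_iff K p]
      exact_mod_cast h
    have h4 := (Nat.prime_dvd_prime_iff_eq hp Nat.prime_two).mp h3
    rw [h4] at hp2
    exact absurd hp2 (by decide)
  let B' : BilinForm K E := mkB hadd hsm hsymm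
  have hB' : ∀ x y, B' x y = B x y := fun x y => rfl
  have hS : Sm B' := ⟨hsymm, hnd⟩
  obtain ⟨ι, hι⟩ : ∃ ι : SpecialLinearGroup K E →* (E ≃ₗ[K] E),
      ∀ g, ι g = SpecialLinearGroup.toLinearEquiv g := ⟨_, fun g => rfl⟩
  have hιg : ∀ g : SpecialLinearGroup K E, ∀ x : E, ι g x = g x := by
    intro g x
    rw [hι]
    rfl
  have hinj : Function.Injective ι := by
    intro g g' h
    apply Subtype.ext
    apply LinearEquiv.ext
    intro x
    have h3 := congrArg (fun e : E ≃ₗ[K] E => e x) h
    simp only [hιg] at h3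
    exact h3
  have hCl : Cl B' (X.map ι) := by
    refine ⟨?_, ?_⟩
    · rintro _ ⟨g, hg, rfl⟩ x y
      rw [hιg, hιg, hB', hB', hX g hg]
    · intro g hg hd
      obtain ⟨g', hg'⟩ : ∃ g' : SpecialLinearGroup K E, ι g' = g := by
        exact ⟨⟨g, hd⟩, LinearEquiv.ext fun x => hιg _ x⟩
      refine ⟨g' ^ 2, hsq g' fun x y => ?_, by rw [map_pow, hg']⟩
      have h3 := mem_SpG.mp hg x y
      rw [← hg', hιg, hιg] at h3
      exact h3
  have hSM : SM p X :=
    SM.of_equiv (X.equivMapOfInjective ι hinj).symm (SM_Or h2 hp2 hK hS hCl)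
  haveI : Finite (SpecialLinearGroup K E) := Finite.of_injective ι hinj
  have h3 := not_dvd_center_of_SM hSM hL hπ (by
    intro hd
    obtain ⟨x, hx⟩ := exists_prime_orderOf_dvd_card' p hd
    have h4 : x ^ p = 1 := by rw [← hx]; exact pow_orderOf_eq_one x
    have h5 : ((x : X) : SpecialLinearGroup K E) ^ p = 1 :=
      congrArg (fun z : π.ker => ((z : X) : SpecialLinearGroup K E)) h4
    have h6 := center_pel (hker x x.2) h5
    have h7 : x = 1 := Subtype.ext (Subtype.ext h6)
    rw [h7, orderOf_one] at hx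
    exact hp.one_lt.ne hx)
  rw [hn]
  exact Nat.Coprime.pow_left _ ((Nat.Prime.coprime_iff_not_dvd hp).mpr h3)

end Fin

end Vale.Agent.P180.R2.H589.Or
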