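import Vale.Agent.P180.R2.H589.Sp.Mul
import Mathlib.FieldTheory.Finite.Basic
import Mathlib.Algebra.Polynomial.Roots

/-!
P180: lifts of two root subgroups commute if they are scaled simultaneously by the squares.
-/

set_option linter.all false

namespace Vale.Agent.P180.R2.H589.Or

open Subgroup
open Vale.Agent.P180.R2.H589.Sch
open scoped commutatorElement

section Field

variable {K : Type*} [Field K]

open Polynomial in
theorem exists_par [Finite K] (hK : 13 < Nat.card K) :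
    ∃ t : K, t ≠ 0 ∧ t ^ 4 ≠ 1 ∧ t ^ 8 + 14 * t ^ 4 + 1 ≠ 0 := by
  classical
  haveI := Fintype.ofFinite K
  by_contra hcon
  push Not at hcon
  obtain ⟨P, hP⟩ : ∃ P : K[X], P = X * (X ^ 4 - 1) * (X ^ 8 + C 14 * X ^ 4 + 1) := ⟨_, rfl⟩
  have hev : ∀ t : K, P.eval t = 0 := by
    intro t
    rw [hP]
    simp only [eval_mul, eval_X, eval_sub, eval_pow, eval_one, eval_add, eval_C]
    by_cases h0 : t = 0
    · rw [h0, zero_mul, zero_mul]
    by_cases h1 : t ^ 4 = 1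
    · rw [h1, sub_self, mul_zero, zero_mul]
    · rw [hcon t h0 h1, mul_zero]
  have hdeg : P.natDegree = 13 := by
    rw [hP]
    compute_degree!
  have h0 : P = 0 := by
    refine Polynomial.eq_zero_of_natDegree_lt_card_of_eval_eq_zero' P Finset.univ
      (fun t _ => hev t) ?_
    rw [hdeg, Finset.card_univ, ← Nat.card_eq_fintype_card]
    exact hK
  rw [h0, natDegree_zero] at hdeg
  omega

/-- a Pythagorean triple -/
theorem exists_triple [Finite K] (h2 : (2 : K) ≠ 0) (hK : 13 < Nat.card K) :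
    ∃ x y z : K, x ≠ 0 ∧ y ≠ 0 ∧ z ≠ 0 ∧ x ^ 2 + y ^ 2 = z ^ 2 ∧
      x ^ 4 + x ^ 2 * y ^ 2 + y ^ 4 ≠ 0 := by
  obtain ⟨t, h0, h4, h8⟩ := exists_par hK
  refine ⟨1 - t ^ 2, 2 * t, 1 + t ^ 2, ?_, mul_ne_zero h2 h0, ?_, by ring, ?_⟩
  · intro h
    apply h4
    linear_combination (-(1 + t ^ 2)) * h
  · intro h
    apply h4
    linear_combination (t ^ 2 - 1) * h
  · intro h
    apply h8
    linear_combination h

/-- small fields -/
theorem card_of [Finite K] (hK : 9 < Nat.card K) (h15 : (15 : K) = 0) : 13 < Nat.card K := by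
  haveI := Fintype.ofFinite K
  obtain ⟨p, hpc⟩ := CharP.exists K
  obtain ⟨n, hp, hn⟩ := FiniteField.card K p
  rw [Nat.card_eq_fintype_card, hn] at hK ⊢
  have h1 : p ∣ 15 := by
    rw [← CharP.cast_eq_zero_iff K p]
    exact_mod_cast h15
  have h3 : p = 3 ∨ p = 5 := by
    have h4 : p ≤ 15 := Nat.le_of_dvd (by norm_num) h1
    interval_cases p <;> revert hp h1 <;> decide
  rcases h3 with rfl | rfl
  · have h4 : 3 ≤ (n : ℕ) := by
      by_contra h
      have h5 : (3 : ℕ) ^ (n : ℕ) ≤ 3 ^ 2 := Nat.pow_le_pow_right (by norm_num) (by omega)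
      omega
    have h5 : (3 : ℕ) ^ 3 ≤ 3 ^ (n : ℕ) := Nat.pow_le_pow_right (by norm_num) h4
    omega
  · have h4 : 2 ≤ (n : ℕ) := by
      by_contra h
      have h5 : (5 : ℕ) ^ (n : ℕ) ≤ 5 ^ 1 := Nat.pow_le_pow_right (by norm_num) (by omega)
      omega
    have h5 : (5 : ℕ) ^ 2 ≤ 5 ^ (n : ℕ) := Nat.pow_le_pow_right (by norm_num) h4
    omega

end Field

section Pair

variable {E G K : Type*} [Group E] [Group G] [Field K] {f : E →* G}

/-- Lifts of two commuting root subgroups commute if they are scaled simultaneously by the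
squares. -/
theorem comm_of_two_squares [Finite K] (h2 : (2 : K) ≠ 0) (hK : 9 < Nat.card K)
    (hf : Function.Surjective f) (hk : f.ker ≤ center E) {ρ ρ' : K → G}
    (hρ : ∀ s t, ρ (s + t) = ρ s * ρ t) (hρ' : ∀ s t, ρ' (s + t) = ρ' s * ρ' t)
    (hcomm : ∀ s t, ρ s * ρ' t = ρ' t * ρ s)
    (hg : ∀ m : K, m ≠ 0 → ∃ g : G, (∀ s, g * ρ s * g⁻¹ = ρ (m ^ 2 * s)) ∧
      ∀ t, g * ρ' t * g⁻¹ = ρ' (m ^ 2 * t))
    {s t : K} {a b : E} (ha : f a = ρ s) (hb : f b = ρ' t) : a * b = b * a := by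
  obtain ⟨c, h1, h3, h4⟩ := exists_pairing hf hk hρ hρ' hcomm
  have hinv : ∀ m : K, m ≠ 0 → ∀ s t, c (m ^ 2 * s) (m ^ 2 * t) = c s t := by
    intro m hm s t
    obtain ⟨g, hg1, hg2⟩ := hg m hm
    obtain ⟨γ, rfl⟩ := hf g
    obtain ⟨x, hx⟩ := hf (ρ s)
    obtain ⟨y, hy⟩ := hf (ρ' t)
    apply Subtype.ext
    rw [h4 (m ^ 2 * s) (m ^ 2 * t) (γ * x * γ⁻¹) (γ * y * γ⁻¹)
      (by rw [map_mul, map_mul, map_inv, hx, hg1])
      (by rw [map_mul, map_mul, map_inv, hy, hg2]), h4 s t x y hx hy]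
    apply comm_conj_of
    rw [← h4 s t x y hx hy]
    exact (c s t).2
  have h0 : ∀ t, c 0 t = 1 := by
    intro t
    have := h1 0 0 t
    rw [add_zero] at this
    exact left_eq_mul.mp this
  have h0' : ∀ s, c s 0 = 1 := by
    intro s
    have := h3 s 0 0
    rw [add_zero] at this
    exact left_eq_mul.mp this
  have hall : ∀ s t, c s t = 1 := by
    by_cases h15 : (15 : K) = 0
    · obtain ⟨x, y, z, hx, hy, hz, hxyz, hne⟩ := exists_triple h2 (card_of hK h15)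
      have hx2 : x ^ 2 ≠ 0 := pow_ne_zero 2 hx
      have hy2 : y ^ 2 ≠ 0 := pow_ne_zero 2 hy
      have hz2 : z ^ 2 ≠ 0 := pow_ne_zero 2 hz
      have hmove : ∀ m : K, m ≠ 0 → ∀ s t, c (m ^ 2 * s) t = c s ((m ^ 2)⁻¹ * t) := by
        intro m hm s t
        rw [← hinv m hm s ((m ^ 2)⁻¹ * t), mul_inv_cancel_left₀ (pow_ne_zero 2 hm)]
      have key : ∀ s t, c s (((x ^ 2)⁻¹ + (y ^ 2)⁻¹ - (z ^ 2)⁻¹) * t) = 1 := by
        intro s t
        have e1 : c (z ^ 2 * s) t = c (x ^ 2 * s) t * c (y ^ 2 * s) t := by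
          rw [← h1, ← add_mul, hxyz]
        rw [hmove z hz, hmove x hx, hmove y hy, ← h3, ← add_mul] at e1
        have e2 : ((x ^ 2)⁻¹ + (y ^ 2)⁻¹) * t =
            ((x ^ 2)⁻¹ + (y ^ 2)⁻¹ - (z ^ 2)⁻¹) * t + (z ^ 2)⁻¹ * t := by ring
        rw [e2, h3] at e1
        exact right_eq_mul.mp e1
      have hD : (x ^ 2)⁻¹ + (y ^ 2)⁻¹ - (z ^ 2)⁻¹ ≠ 0 := by
        intro h
        apply hne
        have e3 : x ^ 2 * y ^ 2 * z ^ 2 * ((x ^ 2)⁻¹ + (y ^ 2)⁻¹ - (z ^ 2)⁻¹) = 0 := by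
          rw [h, mul_zero]
        have e4 : x ^ 2 * y ^ 2 * z ^ 2 * ((x ^ 2)⁻¹ + (y ^ 2)⁻¹ - (z ^ 2)⁻¹) =
            y ^ 2 * z ^ 2 + x ^ 2 * z ^ 2 - x ^ 2 * y ^ 2 := by
          field_simp
          try ring
        rw [e4, ← hxyz] at e3
        linear_combination e3
      intro s t
      have := key s (((x ^ 2)⁻¹ + (y ^ 2)⁻¹ - (z ^ 2)⁻¹)⁻¹ * t)
      rwa [mul_inv_cancel_left₀ hD] at this
    · have hn1 : ∀ (n : ℕ) s t, c (n * s) t = c s t ^ n := by
        intro n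
        induction n with
        | zero => intro s t; rw [Nat.cast_zero, zero_mul, h0, pow_zero]
        | succ n ih => intro s t; rw [Nat.cast_succ, add_mul, one_mul, h1, ih, pow_succ]
      have hn2 : ∀ (n : ℕ) s t, c s (n * t) = c s t ^ n := by
        intro n
        induction n with
        | zero => intro s t; rw [Nat.cast_zero, zero_mul, h0', pow_zero]
        | succ n ih => intro s t; rw [Nat.cast_succ, add_mul, one_mul, h3, ih, pow_succ]
      have h5 : ∀ s t, c s t ^ 15 = 1 := by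
        intro s t
        have e1 := hinv 2 h2 s t
        have e2 : (2 : K) ^ 2 = ((4 : ℕ) : K) := by norm_num
        rw [e2, hn1, hn2, ← pow_mul] at e1
        have e3 : c s t ^ 15 * c s t = 1 * c s t := by
          rw [← pow_succ, one_mul]
          exact e1
        exact mul_right_cancel e3
      intro s t
      have e1 := hn1 15 ((15 : K)⁻¹ * s) t
      rw [h5] at e1
      have e2 : ((15 : ℕ) : K) * ((15 : K)⁻¹ * s) = s := by
        rw [Nat.cast_ofNat, mul_inv_cancel_left₀ h15]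
      rwa [e2] at e1
  have h5 := h4 s t a b ha hb
  rw [hall] at h5
  exact commutatorElement_eq_one_iff_mul_comm.mp h5.symm

end Pair

end Vale.Agent.P180.R2.H589.Or
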