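import Vale.Agent.P180.R2.H589.Or.Stb
import Vale.Agent.P180.R2.H589.Or.Comm
import Vale.Agent.P180.R2.H589.Sp.Chr
import Vale.Agent.P180.R2.H589.Bt.Loc

/-!
P180: the Schur multiplier of an orthogonal group over a finite field `K`, `|K| > 9` odd, has order
prime to the characteristic.
-/

set_option linter.all false

namespace Vale.Agent.P180.R2.H589.Or

open Subgroup Module
open LinearMap (BilinForm)
open Vale.Agent.P180.R2.H589.Sch
open Vale.Agent.P180.R2.H589.Sp (SpG mem_SpG WW BW BW_apply lv lv_apply lv_mul lv_one lv_inv oo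
  oo_ne cj cj_apply cj_mem SM SM.of_index SM.of_equiv SM.of_quot SM.of_not_dvd finite_gl
  not_dvd_units)

/-- the subgroups which contain the squares of the isometries of determinant one -/
def Cl {K V : Type*} [Field K] [AddCommGroup V] [Module K V] (B : BilinForm K V)
    (X : Subgroup (V ≃ₗ[K] V)) : Prop :=
  X ≤ SpG B ∧ ∀ g ∈ SpG B, LinearEquiv.det g = 1 → g ^ 2 ∈ X

section Gen

variable {K V : Type*} [Field K] [AddCommGroup V] [Module K V] {p : ℕ} [hp : Fact p.Prime]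
  [CharP K p] {B : BilinForm K V} {X : Subgroup (V ≃ₗ[K] V)}

include hp in
theorem Cl.pel (hX : Cl B X) (hp2 : Odd p) {g : V ≃ₗ[K] V} (hg : g ∈ SpG B) (h : Pel p g) :
    g ∈ X := by
  have hdet := Un.det_pel h
  obtain ⟨n, hn⟩ := h
  obtain ⟨k, hk⟩ : Odd (p ^ n) := hp2.pow
  have h1 := hX.2 (g ^ (k + 1)) (Subgroup.pow_mem _ hg _) (by rw [map_pow, hdet, one_pow])
  have h3 : (g ^ (k + 1)) ^ 2 = g := by
    rw [← pow_mul]
    have : (k + 1) * 2 = p ^ n + 1 := by omega
    rw [this, pow_succ, hn, one_mul]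
  rwa [h3] at h1

theorem no_pel [Finite V] (h : ∀ g ∈ X, Pel p g → g = 1) : ¬ p ∣ Nat.card X := by
  haveI : Finite (V ≃ₗ[K] V) := finite_gl
  intro hd
  obtain ⟨g, hg⟩ := exists_prime_orderOf_dvd_card' p hd
  have h1 : g = 1 := by
    apply Subtype.ext
    refine h g g.2 ⟨1, ?_⟩
    rw [pow_one, ← Subgroup.coe_pow, ← hg, pow_orderOf_eq_one]
    rfl
  rw [h1, orderOf_one] at hg
  exact hp.out.one_lt.ne hg

end Gen

section Step

variable {K : Type} [Field K] [Finite K] {p : ℕ} [hp : Fact p.Prime] [CharP K p] {W : Type}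
  [AddCommGroup W] [Module K W] [Module.Finite K W] {B : BilinForm K W} (hB : Sm B)
  (h2 : (2 : K) ≠ 0) {X : Subgroup ((K × W × K) ≃ₗ[K] (K × W × K))} (hX : Cl (hypo B) X)

/-- the stabiliser of the first line in `X` -/
def StX (X : Subgroup ((K × W × K) ≃ₗ[K] (K × W × K))) (B : BilinForm K W) :
    Subgroup ((K × W × K) ≃ₗ[K] (K × W × K)) := X ⊓ StO B

/-- the map to the Levi factor -/
def phi (X : Subgroup ((K × W × K) ≃ₗ[K] (K × W × K))) (B : BilinForm K W) :
    StX X B →* Kˣ × SpG B :=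
  ((lam B).prod (bl B)).comp (Subgroup.inclusion inf_le_right)

omit [Finite K] [Module.Finite K W] in
theorem phi_apply (g : StX X B) : phi X B g =
    (lam B ⟨g, g.2.2⟩, bl B ⟨g, g.2.2⟩) := rfl

include hX in
omit [Finite K] in
theorem lv_sq_mem {m : W ≃ₗ[K] W} (hm : m ∈ SpG B) (hd : LinearEquiv.det m = 1) (l : Kˣ) :
    lv (m ^ 2) (l ^ 2) ∈ StX X B := by
  have h1 : lv (m ^ 2) (l ^ 2) = (lv m l) ^ 2 := by
    rw [pow_two, pow_two, pow_two, lv_mul]
  rw [h1]
  exact ⟨hX.2 _ (lv_mem hm l) (by rw [det_lv, hd]), Subgroup.pow_mem _ (lv_St hm l) 2⟩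

include hX hp hB h2 in
omit [Finite K] [Module.Finite K W] in
theorem qo_memX (hp2 : Odd p) (y : W) : qo B y ∈ StX X B :=
  ⟨hX.pel hp2 (qo_mem hB h2 y) (qo_pel (p := p) hB h2 y), qo_St hB h2 y⟩

include hB h2 in
omit [Finite K] [Module.Finite K W] hp [CharP K p] in
theorem exists_of_phi {g : StX X B} (h : phi X B g = 1) :
    ∃ y, (g : (K × W × K) ≃ₗ[K] (K × W × K)) = qo B y :=
  exists_qo hB h2 (g := ⟨g, g.2.2⟩) (congrArg Prod.snd h) (congrArg Prod.fst h)

include hX in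
theorem SM_range (ih : ∀ Y : Subgroup (W ≃ₗ[K] W), Cl B Y → SM p Y) :
    SM p (phi X B).range := by
  haveI : Finite W := Module.finite_of_finite K
  haveI : Finite (W ≃ₗ[K] W) := finite_gl
  haveI : Finite ((K × W × K) ≃ₗ[K] (K × W × K)) := finite_gl
  obtain ⟨D, hD⟩ : ∃ D, D = (phi X B).range := ⟨_, rfl⟩
  rw [← hD]
  have h1 : SM p (D.comap (MonoidHom.inr Kˣ (SpG B))) := by
    refine SM.of_equiv ((D.comap (MonoidHom.inr Kˣ (SpG B))).equivMapOfInjective
      (SpG B).subtype (SpG B).subtype_injective).symm (ih _ ⟨?_, ?_⟩)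
    · rintro _ ⟨m, -, rfl⟩
      exact m.2
    · intro m hm hd
      refine ⟨⟨m ^ 2, Subgroup.pow_mem _ hm 2⟩, ?_, rfl⟩
      change MonoidHom.inr Kˣ (SpG B) _ ∈ D
      rw [hD]
      have h3 := lv_sq_mem hX hm hd 1
      rw [one_pow] at h3
      refine ⟨⟨lv (m ^ 2) 1, h3⟩, ?_⟩
      exact Prod.ext (lam_lv (Subgroup.pow_mem _ hm 2) 1) rfl
  have h3 : SM p ((MonoidHom.fst Kˣ (SpG B)).comp D.subtype).ker := by
    refine SM.of_equiv (G := D.comap (MonoidHom.inr Kˣ (SpG B))) ?_ h1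
    exact
      { toFun := fun g => ⟨⟨(1, (g : SpG B)), g.2⟩, rfl⟩
        invFun := fun w => ⟨((w : D) : Kˣ × SpG B).2, by
          have h4 : ((w : D) : Kˣ × SpG B).1 = 1 := MonoidHom.mem_ker.mp w.2
          change ((1 : Kˣ), ((w : D) : Kˣ × SpG B).2) ∈ D
          rw [← h4]
          exact (w : D).2⟩
        left_inv := fun g => rfl
        right_inv := fun w => Subtype.ext (Subtype.ext
          (Prod.ext (MonoidHom.mem_ker.mp w.2).symm rfl))
        map_mul' := fun g h => Subtype.ext (Subtype.ext (Prod.ext (one_mul 1).symm rfl)) }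
  refine SM.of_index ?_ h3
  rw [index_ker]
  intro hd
  exact not_dvd_units (K := K) (p := p) (hd.trans (card_subgroup_dvd_card _))

include hB h2 hX in
theorem SM_StX (hp2 : Odd p) (hK : 9 < Nat.card K)
    (ih : ∀ Y : Subgroup (W ≃ₗ[K] W), Cl B Y → SM p Y) : SM p (StX X B) := by
  haveI : Finite W := Module.finite_of_finite K
  haveI : Finite ((K × W × K) ≃ₗ[K] (K × W × K)) := finite_gl
  obtain ⟨μ, hμ2, hμ1⟩ := Sp.exists_unit_sq (Sp.exists_mu2 (K := K) (by omega))
  have h11 : (1 : W ≃ₗ[K] W) ^ 2 = 1 := one_pow 2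
  have htor : ∀ l : Kˣ, lv (1 : W ≃ₗ[K] W) (l ^ 2) ∈ StX X B := by
    intro l
    have h3 := lv_sq_mem hX (m := 1) (Subgroup.one_mem _) (map_one _) l
    rwa [h11] at h3
  obtain ⟨q, hq⟩ : ∃ q : W → StX X B,
      ∀ y, ((q y : StX X B) : (K × W × K) ≃ₗ[K] (K × W × K)) = qo B y :=
    ⟨fun y => ⟨qo B y, qo_memX hB h2 hX (p := p) hp2 y⟩, fun y => rfl⟩
  obtain ⟨t, ht⟩ : ∃ t : Kˣ → StX X B,
      ∀ l, ((t l : StX X B) : (K × W × K) ≃ₗ[K] (K × W × K)) = lv 1 (l ^ 2) :=
    ⟨fun l => ⟨lv 1 (l ^ 2), htor l⟩, fun y => rfl⟩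
  have hqmul : ∀ y y', q y * q y' = q (y + y') := by
    intro y y'
    apply Subtype.ext
    rw [Subgroup.coe_mul, hq, hq, hq, qo_mul hB h2]
  have htq : ∀ l y, t l * q y * (t l)⁻¹ = q ((l : K) ^ 2 • y) := by
    intro l y
    apply Subtype.ext
    rw [Subgroup.coe_mul, Subgroup.coe_mul, Subgroup.coe_inv, hq, hq, ht,
      lv_qo (Subgroup.one_mem _), Units.val_pow_eq_pow_val]
    rfl
  have hqinj : ∀ {y y'}, q y = q y' → y = y' := by
    intro y y' h
    have h3 := congrArg Subtype.val h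
    rw [hq, hq] at h3
    exact qo_inj h3
  have hmem : ∀ g : StX X B, (phi X B).rangeRestrict g = 1 → ∃ y, g = q y := by
    intro g hg
    obtain ⟨y, hy⟩ := exists_of_phi hB h2 (congrArg Subtype.val hg)
    exact ⟨y, Subtype.ext (by rw [hy, hq])⟩
  refine SM.of_quot (phi X B).rangeRestrict (phi X B).rangeRestrict_surjective
    (SM_range hX ih) ?_
  intro E _ _ f hf hk
  obtain ⟨h, hh⟩ := hf (t μ)
  have H1 : ∀ x y, (phi X B).rangeRestrict (f x) = 1 → (phi X B).rangeRestrict (f y) = 1 →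
      x * y = y * x := by
    intro x y hx hy
    obtain ⟨a, ha⟩ := hmem _ hx
    obtain ⟨b, hb⟩ := hmem _ hy
    refine comm_of_two_squares (K := K) h2 hK hf hk (ρ := fun s => q (s • a))
      (ρ' := fun s => q (s • b)) (fun s t => ?_) (fun s t => ?_) (fun s t => ?_)
      (fun m hm => ?_) (s := 1) (t := 1) ?_ ?_
    · rw [hqmul, add_smul]
    · rw [hqmul, add_smul]
    · rw [hqmul, hqmul, add_comm]
    · refine ⟨t (Units.mk0 m hm), fun s => ?_, fun s => ?_⟩
      · rw [htq, Units.val_mk0, smul_smul]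
      · rw [htq, Units.val_mk0, smul_smul]
    · rw [one_smul]; exact ha
    · rw [one_smul]; exact hb
  refine ⟨h, H1, ?_, ?_⟩
  · intro n hn hnh
    obtain ⟨y, rfl⟩ := hmem n hn
    rw [hh, eq_comm, ← mul_inv_eq_iff_eq_mul, htq] at hnh
    have h3 := hqinj hnh
    have h4 : ((μ : K) ^ 2 - 1) • y = 0 := by rw [sub_smul, one_smul, h3, sub_self]
    have h5 : y = 0 := (smul_eq_zero.mp h4).resolve_left (sub_ne_zero.mpr hμ2)
    apply Subtype.ext
    rw [hq, h5, qo_zero]
    rfl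
  · intro x y hx
    refine H1 x _ hx ?_
    have e1 : (phi X B) (t μ) = (μ ^ 2, 1) := by
      rw [phi_apply]
      refine Prod.ext ?_ ?_
      · apply Units.ext
        rw [lam_val]
        change (((t μ : StX X B) : (K × W × K) ≃ₗ[K] (K × W × K)) (oo K W)).1 = _
        rw [ht, lv_apply]
        exact mul_one _
      · apply Subtype.ext
        apply LinearEquiv.ext
        intro x
        rw [bl_apply]
        change (((t μ : StX X B) : (K × W × K) ≃ₗ[K] (K × W × K)) (0, x, 0)).2.1 = x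
        rw [ht, lv_apply]
        rfl
    apply Subtype.ext
    change phi X B (f (h⁻¹ * y * h * y⁻¹)) = 1
    rw [map_mul, map_mul, map_mul, map_mul, map_mul, map_mul, map_inv, map_inv, map_inv,
      map_inv, hh, e1]
    refine Prod.ext ?_ ?_
    · change (μ ^ 2)⁻¹ * (phi X B (f y)).1 * μ ^ 2 * (phi X B (f y)).1⁻¹ = 1
      rw [mul_comm (μ ^ 2)⁻¹, inv_mul_cancel_right, mul_inv_cancel]
    · change 1⁻¹ * (phi X B (f y)).2 * 1 * (phi X B (f y)).2⁻¹ = 1
      rw [inv_one, one_mul, mul_one, mul_inv_cancel]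

include hB h2 hX in
theorem not_dvd_index_StX (hp2 : Odd p) (hW : ∃ y : W, y ≠ 0) :
    ¬ p ∣ ((StX X B).subgroupOf X).index := by
  haveI : Finite W := Module.finite_of_finite K
  haveI : Finite ((K × W × K) ≃ₗ[K] (K × W × K)) := finite_gl
  let R : Subgroup X :=
    { carrier := {g | ∃ y, (g : (K × W × K) ≃ₗ[K] (K × W × K)) = qo B y}
      one_mem' := ⟨0, qo_zero.symm⟩
      mul_mem' := by
        rintro g g' ⟨y, hy⟩ ⟨y', hy'⟩
        exact ⟨y + y', by rw [Subgroup.coe_mul, hy, hy', qo_mul hB h2]⟩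
      inv_mem' := by
        rintro g ⟨y, hy⟩
        exact ⟨-y, by rw [Subgroup.coe_inv, hy, qo_inv hB h2]⟩ }
  have hR : IsPGroup p R := by
    rw [Bt.isPGroup_iff]
    rintro g ⟨y, hy⟩
    obtain ⟨n, hn⟩ := qo_pel (p := p) hB h2 y
    exact ⟨n, Subtype.ext (by rw [Subgroup.coe_pow, hy, hn]; rfl)⟩
  obtain ⟨S, hS⟩ := hR.exists_le_sylow
  obtain ⟨v, hv, hfix⟩ := Bt.exists_fixed_gen S.isPGroup'
    (fun (s : S) (x : K × W × K) => ((s : X) : (K × W × K) ≃ₗ[K] (K × W × K)) x)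
    (fun x => rfl) (fun y z x => rfl)
    (by
      rw [Module.natCard_eq_pow_finrank (K := K)]
      refine dvd_pow Bt.dvd_card_K ?_
      rw [Module.finrank_prod, Module.finrank_prod, Module.finrank_self]
      omega) (x₀ := (0 : K × W × K)) (fun y => map_zero _)
  have h1 : ∀ y, qo B y v = v := fun y =>
    hfix ⟨⟨qo B y, (qo_memX hB h2 hX (p := p) hp2 y).1⟩, hS ⟨y, rfl⟩⟩
  have h3 : v.2.2 = 0 := by
    obtain ⟨y, hy⟩ := hW
    have h4 := congrArg (fun u : K × W × K => u.2.1) (h1 y)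
    change v.2.1 + v.2.2 • y = v.2.1 at h4
    exact (smul_eq_zero.mp (add_eq_left.mp h4)).resolve_right hy
  have h4 : v.2.1 = 0 := by
    apply hB.nd
    intro y
    have h5 := congrArg Prod.fst (h1 y)
    rw [qo_apply, h3, mul_zero, sub_zero] at h5
    exact sub_eq_self.mp h5
  have h5 : v = v.1 • oo K W := by
    refine Prod.ext (mul_one _).symm (Prod.ext ?_ ?_)
    · rw [h4]
      exact (smul_zero _).symm
    · rw [h3]
      exact (mul_zero _).symm
  have h6 : v.1 ≠ 0 := by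
    intro h7
    rw [h7, zero_smul] at h5
    exact hv h5
  have hle : (S : Subgroup X) ≤ (StX X B).subgroupOf X := by
    intro s hs
    refine mem_subgroupOf.mpr ⟨s.2, hX.1 s.2, 1, ?_⟩
    have h7 : ((s : X) : (K × W × K) ≃ₗ[K] (K × W × K)) v = v := hfix ⟨s, hs⟩
    rw [h5, map_smul] at h7
    rw [one_smul]
    exact smul_right_injective _ h6 h7
  intro hd
  exact S.not_dvd_index (hd.trans (index_dvd_of_le hle))

include hB h2 hX in
theorem SM_step (hp2 : Odd p) (hK : 9 < Nat.card K)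
    (ih : ∀ Y : Subgroup (W ≃ₗ[K] W), Cl B Y → SM p Y) : SM p X := by
  haveI : Finite W := Module.finite_of_finite K
  by_cases hW : ∃ y : W, y ≠ 0
  · refine SM.of_index (not_dvd_index_StX hB h2 hX hp2 hW) ?_
    exact SM.of_equiv (Subgroup.subgroupOfEquivOfLe (inf_le_left : StX X B ≤ X)).symm
      (SM_StX hB h2 hX hp2 hK ih)
  · push Not at hW
    refine SM.of_not_dvd (no_pel (p := p) fun g hg hpg => ?_)
    by_contra h1
    obtain ⟨x, v, e1, e2, e3, e4, e5⟩ := exists_vec (hypo_sm hB) h2 (hX.1 hg) hpg h1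
    -- `x` is a multiple of `v`
    have key : ∀ k : K, x ≠ k • v := by
      rintro k rfl
      rw [map_smul, e2] at e1
      exact e3 (add_eq_left.mp e1.symm)
    rw [hypo_apply, hW v.2.1, map_zero, add_zero] at e4
    rw [hypo_apply, hW v.2.1, map_zero, add_zero] at e5
    have h3 : v.1 * v.2.2 = 0 := by
      have h4 : 2 * (v.1 * v.2.2) = 0 := by linear_combination e4
      exact (mul_eq_zero.mp h4).resolve_left h2
    rcases mul_eq_zero.mp h3 with h4 | h4
    · rw [h4, mul_zero, add_zero] at e5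
      have h5 : v.2.2 ≠ 0 := fun h6 => e3 (Prod.ext h4 (Prod.ext (hW _) h6))
      have h6 : x.1 = 0 := (mul_eq_zero.mp e5).resolve_right h5
      refine key (x.2.2 * v.2.2⁻¹) (Prod.ext ?_ (Prod.ext ?_ ?_))
      · change x.1 = x.2.2 * v.2.2⁻¹ * v.1
        rw [h4, h6, mul_zero]
      · rw [hW x.2.1]
        exact (hW _).symm
      · change x.2.2 = x.2.2 * v.2.2⁻¹ * v.2.2
        rw [inv_mul_cancel_right₀ h5]
    · rw [h4, mul_zero, zero_add] at e5
      have h5 : v.1 ≠ 0 := fun h6 => e3 (Prod.ext h6 (Prod.ext (hW _) h4))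
      have h6 : x.2.2 = 0 := (mul_eq_zero.mp e5).resolve_right h5
      refine key (x.1 * v.1⁻¹) (Prod.ext ?_ (Prod.ext ?_ ?_))
      · change x.1 = x.1 * v.1⁻¹ * v.1
        rw [inv_mul_cancel_right₀ h5]
      · rw [hW x.2.1]
        exact (hW _).symm
      · change x.2.2 = x.1 * v.1⁻¹ * v.2.2
        rw [h4, h6, mul_zero]

end Step

/-- **The multiplier of an orthogonal group.** -/
theorem SM_Or {K : Type} [Field K] [Finite K] {p : ℕ} [hp : Fact p.Prime] [CharP K p]
    (h2 : (2 : K) ≠ 0) (hp2 : Odd p) (hK : 9 < Nat.card K)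
    {V : Type} [AddCommGroup V] [Module K V] [Module.Finite K V] {B : BilinForm K V} (hB : Sm B)
    {X : Subgroup (V ≃ₗ[K] V)} (hX : Cl B X) : SM p X := by
  refine or_ind (K := K) h2 (fun V _ _ B => ∀ X : Subgroup (V ≃ₗ[K] V), Cl B X → SM p X)
    ?_ ?_ ?_ V B hB X hX
  · intro V _ _ _ B hB h0 X hX
    haveI : Finite V := Module.finite_of_finite K
    refine SM.of_not_dvd (no_pel (p := p) fun g hg hpg => ?_)
    by_contra h1
    obtain ⟨x, v, e1, e2, e3, e4, e5⟩ := exists_vec hB h2 (hX.1 hg) hpg h1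
    exact e3 (h0 v e4)
  · intro W _ _ _ B hB ih X hX
    exact SM_step hB h2 hX hp2 hK ih
  · intro V V' _ _ _ _ _ _ B B' e he ih X hX
    refine SM.of_equiv (G := X.comap (cj e).toMonoidHom) ?_ (ih _ ⟨fun g hg => ?_,
      fun g hg hd => ?_⟩)
    · exact
        { toFun := fun g => ⟨cj e g, g.2⟩
          invFun := fun g => ⟨(cj e).symm g, by
            change cj e ((cj e).symm (g : V' ≃ₗ[K] V')) ∈ X
            rw [MulEquiv.apply_symm_apply]
            exact g.2⟩
          left_inv := fun g => Subtype.ext ((cj e).symm_apply_apply g)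
          right_inv := fun g => Subtype.ext ((cj e).apply_symm_apply g)
          map_mul' := fun g h => Subtype.ext (map_mul (cj e) (g : V ≃ₗ[K] V) (h : V ≃ₗ[K] V)) }
    · exact (cj_mem he).mp (hX.1 hg)
    · change cj e (g ^ 2) ∈ X
      rw [map_pow]
      refine hX.2 _ ((cj_mem he).mpr hg) ?_
      rw [← hd]
      exact LinearEquiv.det_conj g e

end Vale.Agent.P180.R2.H589.Or
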