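import Vale.Agent.P180.R2.H589.Sp.Gen
import Vale.Agent.P180.R2.H589.Sp.Stb
import Vale.Agent.P180.R2.H589.Sp.Mul
import Mathlib.Algebra.CharP.Algebra

/-!
P180: symmetric bilinear forms: hyperbolic extensions, unipotent isometries, anisotropic spaces.
-/

set_option linter.all false

namespace Vale.Agent.P180.R2.H589.Or

open Subgroup Module
open LinearMap (BilinForm)
open Vale.Agent.P180.R2.H589.Sch
open Vale.Agent.P180.R2.H589.Sp (SpG mem_SpG WW BW BW_apply lv lv_apply lv_mul lv_one lv_inv oo
  oo_ne cj cj_apply cj_mem)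

section Basic

variable {K V : Type*} [Field K] [AddCommGroup V] [Module K V]

/-- nondegenerate symmetric forms -/
structure Sm (B : BilinForm K V) : Prop where
  symm : ∀ x y, B y x = B x y
  nd : ∀ x, (∀ y, B x y = 0) → x = 0

variable {B : BilinForm K V} (hB : Sm B)

include hB

theorem Sm.exists_one {x : V} (hx : x ≠ 0) : ∃ y, B x y = 1 := by
  obtain ⟨y, hy⟩ : ∃ y, B x y ≠ 0 := by
    by_contra h
    push Not at h
    exact hx (hB.nd x h)
  refine ⟨(B x y)⁻¹ • y, ?_⟩
  rw [map_smul, smul_eq_mul, inv_mul_cancel₀ hy]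

theorem Sm.exists_pair (h2 : (2 : K) ≠ 0) {x : V} (hx : x ≠ 0) (hs : B x x = 0) :
    ∃ y, B x y = 1 ∧ B y y = 0 := by
  obtain ⟨y, hy⟩ := hB.exists_one hx
  refine ⟨y - (2⁻¹ * B y y) • x, ?_, ?_⟩
  · rw [map_sub, map_smul, hs, smul_zero, sub_zero, hy]
  · simp only [map_sub, map_smul, LinearMap.sub_apply, LinearMap.smul_apply, smul_eq_mul]
    rw [hs, hB.symm x y, hy]
    field_simp
    ring

end Basic

section Hyp

variable {K W : Type*} [Field K] [AddCommGroup W] [Module K W]

/-- the hyperbolic extension of a symmetric form -/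
def hypo (B : BilinForm K W) : BilinForm K (K × W × K) :=
  LinearMap.mk₂ K (fun u v => u.1 * v.2.2 + u.2.2 * v.1 + B u.2.1 v.2.1)
    (by
      intro u u' v
      simp only [Prod.fst_add, Prod.snd_add, map_add, LinearMap.add_apply]
      ring)
    (by
      intro c u v
      simp only [Prod.smul_fst, Prod.smul_snd, map_smul, LinearMap.smul_apply, smul_eq_mul]
      ring)
    (by
      intro u v v'
      simp only [Prod.fst_add, Prod.snd_add, map_add, LinearMap.add_apply]
      ring)
    (by
      intro c u v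
      simp only [Prod.smul_fst, Prod.smul_snd, map_smul, LinearMap.smul_apply, smul_eq_mul]
      ring)

theorem hypo_apply (B : BilinForm K W) (u v : K × W × K) :
    hypo B u v = u.1 * v.2.2 + u.2.2 * v.1 + B u.2.1 v.2.1 := rfl

variable {B : BilinForm K W} (hB : Sm B)

include hB in
theorem hypo_sm : Sm (hypo B) := by
  refine ⟨fun x y => ?_, fun x hx => ?_⟩
  · rw [hypo_apply, hypo_apply, hB.symm]
    ring
  · have h1 : x.1 = 0 := by
      have := hx (0, 0, 1)
      rw [hypo_apply] at this
      simpa using this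
    have h2 : x.2.2 = 0 := by
      have := hx (1, 0, 0)
      rw [hypo_apply] at this
      simpa using this
    have h3 : x.2.1 = 0 := by
      apply hB.nd
      intro y
      have := hx (0, y, 0)
      rw [hypo_apply] at this
      simpa using this
    exact Prod.ext h1 (Prod.ext h3 h2)

end Hyp

section Split

variable {K V : Type*} [Field K] [AddCommGroup V] [Module K V] {B : BilinForm K V}
  (hB : Sm B) {o o' : V} (h0 : B o o = 0) (h0' : B o' o' = 0) (h1 : B o o' = 1)

include hB h0 h0' h1

theorem pr_mem (v : V) : v - B o' v • o - B o v • o' ∈ WW B o o' := by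
  constructor
  · change B o (v - B o' v • o - B o v • o') = 0
    rw [map_sub, map_sub, map_smul, map_smul, h0, h1, smul_zero, sub_zero, smul_eq_mul,
      mul_one, sub_self]
  · change B o' (v - B o' v • o - B o v • o') = 0
    rw [map_sub, map_sub, map_smul, map_smul, h0', hB.symm o o', h1, smul_zero,
      sub_zero, smul_eq_mul, mul_one, sub_self]

/-- `V` is a hyperbolic extension. -/
def splitE : (K × WW B o o' × K) ≃ₗ[K] V where
  toFun u := u.1 • o + (u.2.1 : V) + u.2.2 • o'
  map_add' := by
    intro u v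
    simp only [Prod.fst_add, Prod.snd_add, Submodule.coe_add]
    module
  map_smul' := by
    intro c u
    simp only [Prod.smul_fst, Prod.smul_snd, Submodule.coe_smul, RingHom.id_apply, smul_eq_mul]
    module
  invFun v := (B o' v, ⟨v - B o' v • o - B o v • o', pr_mem hB h0 h0' h1 v⟩, B o v)
  left_inv := by
    rintro ⟨a, ⟨x, hx⟩, b⟩
    obtain ⟨hx1, hx2⟩ := hx
    have e1 : B o' (a • o + x + b • o') = a := by
      rw [map_add, map_add, map_smul, map_smul, h0', hB.symm o o', h1, hx2]
      simp
    have e2 : B o (a • o + x + b • o') = b := by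
      rw [map_add, map_add, map_smul, map_smul, h1, h0, hx1]
      simp
    refine Prod.ext e1 (Prod.ext (Subtype.ext ?_) e2)
    change a • o + x + b • o' - B o' (a • o + x + b • o') • o - B o (a • o + x + b • o') • o' = x
    rw [e1, e2]
    module
  right_inv := by
    intro v
    change B o' v • o + (v - B o' v • o - B o v • o') + B o v • o' = v
    module

theorem splitE_apply (u : K × WW B o o' × K) :
    splitE hB h0 h0' h1 u = u.1 • o + (u.2.1 : V) + u.2.2 • o' := rfl

theorem splitE_iso (u v : K × WW B o o' × K) :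
    B (splitE hB h0 h0' h1 u) (splitE hB h0 h0' h1 v) = hypo (BW B o o') u v := by
  obtain ⟨a, ⟨x, hx1, hx2⟩, b⟩ := u
  obtain ⟨a', ⟨x', hx1', hx2'⟩, b'⟩ := v
  rw [splitE_apply, splitE_apply, hypo_apply, BW_apply]
  simp only [map_add, map_smul, LinearMap.add_apply, LinearMap.smul_apply, smul_eq_mul]
  rw [h0, h0', hB.symm o o', h1, hB.symm o x, hB.symm o' x, hx1, hx2, hx1', hx2']
  ring

theorem BW_sm : Sm (BW B o o') := by
  refine ⟨fun x y => hB.symm x y, fun x hx => ?_⟩
  apply Subtype.ext
  apply hB.nd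
  intro v
  obtain ⟨u, rfl⟩ := (splitE hB h0 h0' h1).surjective v
  obtain ⟨a, y, b⟩ := u
  have h2 := x.2.1
  have h3 := x.2.2
  rw [splitE_apply, map_add, map_add, map_smul, map_smul, hB.symm o x, hB.symm o' x, h2, h3]
  have h4 : B x y = 0 := hx y
  rw [h4]
  simp

end Split

/-- **Induction over the quadratic spaces.** -/
theorem or_ind {K : Type} [Field K] (h2 : (2 : K) ≠ 0)
    (P : ∀ (V : Type) [AddCommGroup V] [Module K V], BilinForm K V → Prop)
    (h0 : ∀ (V : Type) [AddCommGroup V] [Module K V] [Module.Finite K V] (B : BilinForm K V),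
      Sm B → (∀ x, B x x = 0 → x = 0) → P V B)
    (hs : ∀ (W : Type) [AddCommGroup W] [Module K W] [Module.Finite K W] (B : BilinForm K W),
      Sm B → P W B → P (K × W × K) (hypo B))
    (hi : ∀ (V V' : Type) [AddCommGroup V] [Module K V] [AddCommGroup V'] [Module K V']
      [Module.Finite K V] [Module.Finite K V']
      (B : BilinForm K V) (B' : BilinForm K V') (e : V ≃ₗ[K] V'),
      (∀ x y, B' (e x) (e y) = B x y) → P V B → P V' B')
    (V : Type) [AddCommGroup V] [Module K V] [Module.Finite K V] (B : BilinForm K V)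
    (hB : Sm B) : P V B := by
  have key : ∀ (n : ℕ) (V : Type) [AddCommGroup V] [Module K V] [Module.Finite K V]
      (B : BilinForm K V), Sm B → finrank K V ≤ n → P V B := by
    intro n
    induction n with
    | zero =>
      intro V _ _ _ B hB hd
      haveI : Subsingleton V := Module.finrank_zero_iff.mp (Nat.le_zero.mp hd)
      exact h0 V B hB fun x _ => Subsingleton.elim _ _
    | succ n ih =>
      intro V _ _ _ B hB hd
      by_cases hV : ∀ x, B x x = 0 → x = 0
      · exact h0 V B hB hV
      · push Not at hV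
        obtain ⟨o, ho, ho0⟩ := hV
        obtain ⟨o', h1, ho'⟩ := hB.exists_pair h2 ho0 ho
        have h3 : finrank K (WW B o o') ≤ n := by
          have h3 := (splitE hB ho ho' h1).finrank_eq
          rw [Module.finrank_prod, Module.finrank_prod, Module.finrank_self] at h3
          omega
        exact hi _ V (hypo (BW B o o')) B (splitE hB ho ho' h1) (splitE_iso hB ho ho' h1)
          (hs _ _ (BW_sm hB ho ho' h1) (ih _ _ (BW_sm hB ho ho' h1) h3))
  exact key _ V B hB le_rfl

section Unip

variable {K V : Type*} [Field K] [AddCommGroup V] [Module K V] {p : ℕ} [hp : Fact p.Prime]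
  [CharP K p] {B : BilinForm K V} (hB : Sm B)

include hp in
theorem nilp {g : V ≃ₗ[K] V} {n : ℕ} (hg : g ^ p ^ n = 1) :
    ((g : V →ₗ[K] V) - 1) ^ p ^ n = 0 := by
  by_cases hV : Nontrivial V
  · haveI : CharP (Module.End K V) p :=
      charP_of_injective_algebraMap (algebraMap K (Module.End K V)).injective p
    have h1 : ∀ m : ℕ, (g : V →ₗ[K] V) ^ m = ((g ^ m : V ≃ₗ[K] V) : V →ₗ[K] V) := by
      intro m
      induction m with
      | zero => rfl
      | succ m ih =>
        rw [pow_succ, ih, pow_succ]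
        rfl
    rw [sub_pow_char_pow_of_commute p n (Commute.one_right _), h1, hg, one_pow]
    exact sub_self _
  · have h3 : Subsingleton V := not_nontrivial_iff_subsingleton.mp hV
    exact LinearMap.ext fun x => Subsingleton.elim _ _

include hB in
/-- Unipotent isometries. -/
theorem exists_vec (h2 : (2 : K) ≠ 0) {g : V ≃ₗ[K] V} (hg : g ∈ SpG B) (hp' : Pel p g)
    (h1 : g ≠ 1) : ∃ x v : V, g x = x + v ∧ g v = v ∧ v ≠ 0 ∧ B v v = 0 ∧ B x v = 0 := by
  obtain ⟨n, hn⟩ := hp'
  have hnil := nilp hn
  obtain ⟨N, hN⟩ : ∃ N : Module.End K V, N = (g : V →ₗ[K] V) - 1 := ⟨_, rfl⟩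
  rw [← hN] at hnil
  have hgN : ∀ x, g x = x + N x := by
    intro x
    rw [hN, LinearMap.sub_apply]
    change g x = x + (g x - x)
    abel
  have hN0 : N ≠ 0 := by
    intro h
    apply h1
    apply LinearEquiv.ext
    intro x
    rw [hgN, h, LinearMap.zero_apply, add_zero]
    rfl
  classical
  have hex : ∃ k, N ^ k = 0 := ⟨_, hnil⟩
  obtain ⟨k, hk, hmin⟩ : ∃ k, N ^ k = 0 ∧ ∀ j < k, N ^ j ≠ 0 :=
    ⟨Nat.find hex, Nat.find_spec hex, fun j hj => Nat.find_min hex hj⟩
  have hk2 : 2 ≤ k := by
    by_contra h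
    have h3 : k = 0 ∨ k = 1 := by omega
    rcases h3 with h3 | h3
    · rw [h3, pow_zero] at hk
      apply hN0
      rw [← mul_one N, hk, mul_zero]
    · rw [h3, pow_one] at hk
      exact hN0 hk
  obtain ⟨y, hy⟩ : ∃ y, (N ^ (k - 1)) y ≠ 0 := by
    by_contra hcon
    push Not at hcon
    exact hmin (k - 1) (by omega) (LinearMap.ext hcon)
  obtain ⟨x, hx⟩ : ∃ x, x = (N ^ (k - 2)) y := ⟨_, rfl⟩
  obtain ⟨v, hv⟩ : ∃ v, v = N x := ⟨_, rfl⟩
  have hv' : v = (N ^ (k - 1)) y := by
    rw [hv, hx, ← Module.End.mul_apply, ← pow_succ']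
    congr 2
    omega
  have hNv : N v = 0 := by
    rw [hv', ← Module.End.mul_apply, ← pow_succ']
    have : k - 1 + 1 = k := by omega
    rw [this, hk, LinearMap.zero_apply]
  have e1 : g x = x + v := by rw [hgN, hv]
  have e2 : g v = v := by rw [hgN, hNv, add_zero]
  have e3 : B v v = 0 := by
    have h3 := mem_SpG.mp hg x v
    rw [e1, e2, map_add, LinearMap.add_apply] at h3
    exact add_eq_left.mp h3
  refine ⟨x, v, e1, e2, by rw [hv']; exact hy, e3, ?_⟩
  have h3 := mem_SpG.mp hg x x
  rw [e1] at h3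
  simp only [map_add, LinearMap.add_apply] at h3
  have h4 : 2 * B x v = 0 := by
    rw [e3, hB.symm x v] at h3
    linear_combination h3
  exact (mul_eq_zero.mp h4).resolve_left h2

end Unip

end Vale.Agent.P180.R2.H589.Or
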