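import Vale.Agent.P180.R2.H589.Or.Frm
import Vale.Agent.P180.R2.H589.Un.Hyp

/-!
P180: orthogonal groups: the stabiliser of a singular line.
-/

set_option linter.all false

namespace Vale.Agent.P180.R2.H589.Or

open Subgroup Module
open LinearMap (BilinForm)
open Vale.Agent.P180.R2.H589.Sch
open Vale.Agent.P180.R2.H589.Sp (SpG mem_SpG WW BW BW_apply lv lv_apply lv_mul lv_one lv_inv oo
  oo_ne cj cj_apply cj_mem)

variable {K W : Type*} [Field K] [AddCommGroup W] [Module K W]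

variable (B : BilinForm K W)

/-- elements of the radical -/
def qo (y : W) : (K × W × K) ≃ₗ[K] (K × W × K) where
  toFun u := (u.1 - B u.2.1 y - (2⁻¹ * B y y) * u.2.2, u.2.1 + u.2.2 • y, u.2.2)
  map_add' := by
    intro u v
    simp only [Prod.fst_add, Prod.snd_add, map_add, LinearMap.add_apply]
    refine Prod.ext ?_ (Prod.ext ?_ rfl)
    · change u.1 + v.1 - (B u.2.1 y + B v.2.1 y) - (2⁻¹ * B y y) * (u.2.2 + v.2.2) =
        u.1 - B u.2.1 y - (2⁻¹ * B y y) * u.2.2 + (v.1 - B v.2.1 y - (2⁻¹ * B y y) * v.2.2)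
      ring
    · change u.2.1 + v.2.1 + (u.2.2 + v.2.2) • y = u.2.1 + u.2.2 • y + (v.2.1 + v.2.2 • y)
      module
  map_smul' := by
    intro a u
    simp only [Prod.smul_fst, Prod.smul_snd, map_smul, LinearMap.smul_apply, smul_eq_mul,
      RingHom.id_apply]
    refine Prod.ext ?_ (Prod.ext ?_ rfl)
    · change a * u.1 - a * B u.2.1 y - (2⁻¹ * B y y) * (a * u.2.2) =
        a * (u.1 - B u.2.1 y - (2⁻¹ * B y y) * u.2.2)
      ring
    · change a • u.2.1 + (a * u.2.2) • y = a • (u.2.1 + u.2.2 • y)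
      module
  invFun u := (u.1 + B (u.2.1 - u.2.2 • y) y + (2⁻¹ * B y y) * u.2.2, u.2.1 - u.2.2 • y, u.2.2)
  left_inv := by
    intro u
    refine Prod.ext ?_ (Prod.ext ?_ rfl)
    · change u.1 - B u.2.1 y - (2⁻¹ * B y y) * u.2.2 + B (u.2.1 + u.2.2 • y - u.2.2 • y) y +
        (2⁻¹ * B y y) * u.2.2 = u.1
      rw [add_sub_cancel_right]
      ring
    · change u.2.1 + u.2.2 • y - u.2.2 • y = u.2.1
      rw [add_sub_cancel_right]
  right_inv := by
    intro u
    refine Prod.ext ?_ (Prod.ext ?_ rfl)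
    · change u.1 + B (u.2.1 - u.2.2 • y) y + (2⁻¹ * B y y) * u.2.2 - B (u.2.1 - u.2.2 • y) y -
        (2⁻¹ * B y y) * u.2.2 = u.1
      ring
    · change u.2.1 - u.2.2 • y + u.2.2 • y = u.2.1
      rw [sub_add_cancel]

theorem qo_apply (y : W) (u : K × W × K) :
    qo B y u = (u.1 - B u.2.1 y - (2⁻¹ * B y y) * u.2.2, u.2.1 + u.2.2 • y, u.2.2) := rfl

variable {B} (hB : Sm B) (h2 : (2 : K) ≠ 0)

include hB h2

theorem qo_mem (y : W) : qo B y ∈ SpG (hypo B) := by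
  intro u v
  rw [qo_apply, qo_apply, hypo_apply, hypo_apply]
  simp only [map_add, map_smul, LinearMap.add_apply, LinearMap.smul_apply, smul_eq_mul]
  rw [hB.symm v.2.1 y]
  field_simp
  ring

theorem qo_mul (y y' : W) : qo B y * qo B y' = qo B (y + y') := by
  apply LinearEquiv.ext
  intro u
  rw [LinearEquiv.mul_apply, qo_apply, qo_apply, qo_apply]
  refine Prod.ext ?_ (Prod.ext ?_ rfl)
  · simp only [map_add, map_smul, LinearMap.add_apply, LinearMap.smul_apply, smul_eq_mul]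
    rw [hB.symm y y']
    field_simp
    ring
  · change u.2.1 + u.2.2 • y' + u.2.2 • y = u.2.1 + u.2.2 • (y + y')
    module

omit hB h2 in
theorem qo_zero : qo B 0 = 1 := by
  apply LinearEquiv.ext
  intro u
  rw [qo_apply, map_zero, map_zero, smul_zero, add_zero, sub_zero, mul_zero, zero_mul, sub_zero]
  rfl

theorem qo_inv (y : W) : (qo B y)⁻¹ = qo B (-y) := by
  symm
  apply eq_inv_of_mul_eq_one_left
  rw [qo_mul hB h2, neg_add_cancel, qo_zero]

theorem qo_pow (y : W) (n : ℕ) : (qo B y) ^ n = qo B ((n : K) • y) := by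
  induction n with
  | zero => rw [pow_zero, Nat.cast_zero, zero_smul, qo_zero]
  | succ n ih =>
    rw [pow_succ, ih, qo_mul hB h2, Nat.cast_succ, add_smul, one_smul]

theorem qo_pel {p : ℕ} [CharP K p] (y : W) : Pel p (qo B y) := by
  refine ⟨1, ?_⟩
  rw [pow_one, qo_pow hB h2, CharP.cast_eq_zero, zero_smul, qo_zero]

omit hB h2 in
theorem qo_inj {y y' : W} (h : qo B y = qo B y') : y = y' := by
  have h1 := congrArg (fun g : (K × W × K) ≃ₗ[K] (K × W × K) => (g (0, 0, 1)).2.1) h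
  simp only [qo_apply, zero_add, one_smul] at h1
  exact h1

omit hB h2 in
theorem lv_mem {m : W ≃ₗ[K] W} (hm : m ∈ SpG B) (l : Kˣ) : lv m l ∈ SpG (hypo B) := by
  intro u v
  rw [lv_apply, lv_apply, hypo_apply, hypo_apply, mem_SpG.mp hm]
  change (l : K) * u.1 * (((l⁻¹ : Kˣ) : K) * v.2.2) + ((l⁻¹ : Kˣ) : K) * u.2.2 * ((l : K) * v.1) +
    B u.2.1 v.2.1 = u.1 * v.2.2 + u.2.2 * v.1 + B u.2.1 v.2.1
  have h1 : (l : K) * ((l⁻¹ : Kˣ) : K) = 1 := Units.mul_inv l
  linear_combination (u.1 * v.2.2 + u.2.2 * v.1) * h1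

omit hB h2 in
theorem lv_qo {m : W ≃ₗ[K] W} (hm : m ∈ SpG B) (l : Kˣ) (y : W) :
    lv m l * qo B y * (lv m l)⁻¹ = qo B ((l : K) • m y) := by
  rw [mul_inv_eq_iff_eq_mul]
  apply LinearEquiv.ext
  intro u
  have h1 : (l : K) * ((l⁻¹ : Kˣ) : K) = 1 := Units.mul_inv l
  rw [LinearEquiv.mul_apply, LinearEquiv.mul_apply, qo_apply, lv_apply, lv_apply, qo_apply]
  refine Prod.ext ?_ (Prod.ext ?_ rfl)
  · change (l : K) * (u.1 - B u.2.1 y - (2⁻¹ * B y y) * u.2.2) = (l : K) * u.1 -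
      B (m u.2.1) ((l : K) • m y) -
      (2⁻¹ * B ((l : K) • m y) ((l : K) • m y)) * (((l⁻¹ : Kˣ) : K) * u.2.2)
    rw [map_smul, map_smul, map_smul, LinearMap.smul_apply, mem_SpG.mp hm, mem_SpG.mp hm,
      smul_eq_mul, smul_eq_mul, smul_eq_mul]
    linear_combination ((l : K) * (2⁻¹ * B y y) * u.2.2) * h1
  · change m (u.2.1 + u.2.2 • y) = m u.2.1 + (((l⁻¹ : Kˣ) : K) * u.2.2) • ((l : K) • m y)
    rw [map_add, map_smul, smul_smul]
    congr 2
    linear_combination (-u.2.2) * h1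

omit hB h2

/-- the stabiliser of a line -/
def StO (B : BilinForm K W) : Subgroup ((K × W × K) ≃ₗ[K] (K × W × K)) where
  carrier := {g | g ∈ SpG (hypo B) ∧ ∃ c : K, g (oo K W) = c • oo K W}
  one_mem' := ⟨Subgroup.one_mem _, 1, by rw [one_smul]; rfl⟩
  mul_mem' := by
    rintro g h ⟨hg, c, hc⟩ ⟨hh, d, hd⟩
    refine ⟨Subgroup.mul_mem _ hg hh, d * c, ?_⟩
    rw [LinearEquiv.mul_apply, hd, map_smul, hc, smul_smul]
  inv_mem' := by
    rintro g ⟨hg, c, hc⟩
    refine ⟨Subgroup.inv_mem _ hg, c⁻¹, ?_⟩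
    have h0 : c ≠ 0 := by
      rintro rfl
      rw [zero_smul] at hc
      exact oo_ne (g.map_eq_zero_iff.mp hc)
    apply g.injective
    have h1 : g (g⁻¹ (oo K W)) = oo K W := g.apply_symm_apply _
    rw [h1, map_smul, hc, smul_smul, inv_mul_cancel₀ h0, one_smul]

theorem mem_StO {g : (K × W × K) ≃ₗ[K] (K × W × K)} :
    g ∈ StO B ↔ g ∈ SpG (hypo B) ∧ ∃ c : K, g (oo K W) = c • oo K W := Iff.rfl

/-- the eigenvalue -/
def lamF (g : (K × W × K) ≃ₗ[K] (K × W × K)) : K := (g (oo K W)).1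

theorem lamF_spec {g : (K × W × K) ≃ₗ[K] (K × W × K)} (hg : g ∈ StO B) :
    g (oo K W) = lamF g • oo K W := by
  obtain ⟨_, c, hc⟩ := hg
  have h1 : lamF g = c := by
    rw [lamF, hc]
    change c * 1 = c
    rw [mul_one]
  rw [h1, hc]

theorem lamF_mul {g h : (K × W × K) ≃ₗ[K] (K × W × K)} (hg : g ∈ StO B) (hh : h ∈ StO B) :
    lamF (g * h) = lamF g * lamF h := by
  have h1 : (g * h) (oo K W) = (lamF g * lamF h) • oo K W := by
    rw [LinearEquiv.mul_apply, lamF_spec hh, map_smul, lamF_spec hg, smul_smul, mul_comm]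
  rw [lamF, h1]
  change lamF g * lamF h * 1 = _
  rw [mul_one]

theorem lamF_one : lamF (1 : (K × W × K) ≃ₗ[K] (K × W × K)) = 1 := rfl

theorem lamF_ne {g : (K × W × K) ≃ₗ[K] (K × W × K)} (hg : g ∈ StO B) : lamF g ≠ 0 := by
  intro h
  have h1 := lamF_spec hg
  rw [h, zero_smul] at h1
  exact oo_ne (g.map_eq_zero_iff.mp h1)

theorem thd {g : (K × W × K) ≃ₗ[K] (K × W × K)} (hg : g ∈ StO B) (v : K × W × K) :
    lamF g * (g v).2.2 = v.2.2 := by
  have h1 := mem_SpG.mp hg.1 (oo K W) v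
  rw [lamF_spec hg, map_smul, LinearMap.smul_apply, hypo_apply, hypo_apply] at h1
  simp only [oo, smul_eq_mul, map_zero, LinearMap.zero_apply, zero_mul, sub_zero, add_zero,
    one_mul] at h1
  exact h1

theorem thd_zero {g : (K × W × K) ≃ₗ[K] (K × W × K)} (hg : g ∈ StO B) {v : K × W × K}
    (hv : v.2.2 = 0) : (g v).2.2 = 0 := by
  have h1 := thd hg v
  rw [hv] at h1
  exact (mul_eq_zero.mp h1).resolve_left (lamF_ne hg)

/-- the block -/
def blF (g : (K × W × K) ≃ₗ[K] (K × W × K)) : W →ₗ[K] W :=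
  (LinearMap.fst K W K).comp ((LinearMap.snd K K (W × K)).comp
    (g.toLinearMap.comp ((LinearMap.inr K K (W × K)).comp (LinearMap.inl K W K))))

theorem blF_apply (g : (K × W × K) ≃ₗ[K] (K × W × K)) (x : W) :
    blF g x = (g (0, x, 0)).2.1 := rfl

theorem snd_of {g : (K × W × K) ≃ₗ[K] (K × W × K)} (hg : g ∈ StO B) (a : K) (x : W) :
    (g (a, x, 0)).2.1 = blF g x := by
  have h1 : ((a, x, 0) : K × W × K) = a • oo K W + (0, x, 0) := by
    refine Prod.ext ?_ (Prod.ext ?_ ?_)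
    · change a = a * 1 + 0
      ring
    · change x = a • (0 : W) + x
      rw [smul_zero, zero_add]
    · change (0 : K) = a * 0 + 0
      ring
  rw [h1, map_add, map_smul, lamF_spec hg, smul_smul]
  change (a * lamF g) • (0 : W) + (g (0, x, 0)).2.1 = _
  rw [smul_zero, zero_add]
  rfl

theorem form_of {g : (K × W × K) ≃ₗ[K] (K × W × K)} (hg : g ∈ StO B) (x : W) :
    g (0, x, 0) = ((g (0, x, 0)).1, blF g x, 0) :=
  Prod.ext rfl (Prod.ext rfl (thd_zero hg rfl))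

theorem blF_mul {g h : (K × W × K) ≃ₗ[K] (K × W × K)} (hg : g ∈ StO B) (hh : h ∈ StO B) (x : W) :
    blF (g * h) x = blF g (blF h x) := by
  rw [blF_apply, LinearEquiv.mul_apply, form_of hh, snd_of hg]

theorem blF_one (x : W) : blF (1 : (K × W × K) ≃ₗ[K] (K × W × K)) x = x := rfl

theorem blF_iso {g : (K × W × K) ≃ₗ[K] (K × W × K)} (hg : g ∈ StO B) (x y : W) :
    B (blF g x) (blF g y) = B x y := by
  have h1 := mem_SpG.mp hg.1 (0, x, 0) (0, y, 0)
  rw [form_of hg x, form_of hg y, hypo_apply, hypo_apply] at h1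
  simp only [mul_zero, zero_mul, sub_zero, zero_add] at h1
  exact h1

/-- the block -/
def bl (B : BilinForm K W) : StO B →* SpG B where
  toFun g := ⟨LinearEquiv.ofLinear (blF (g : (K × W × K) ≃ₗ[K] (K × W × K)))
      (blF ((g⁻¹ : StO B) : (K × W × K) ≃ₗ[K] (K × W × K)))
      (by
        ext x
        rw [LinearMap.comp_apply, ← blF_mul g.2 (g⁻¹).2]
        have : (g : (K × W × K) ≃ₗ[K] (K × W × K)) * ((g⁻¹ : StO B) : (K × W × K) ≃ₗ[K] (K × W × K))
          = 1 := by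
          rw [Subgroup.coe_inv, mul_inv_cancel]
        rw [this, blF_one]
        rfl)
      (by
        ext x
        rw [LinearMap.comp_apply, ← blF_mul (g⁻¹).2 g.2]
        have : ((g⁻¹ : StO B) : (K × W × K) ≃ₗ[K] (K × W × K)) * (g : (K × W × K) ≃ₗ[K] (K × W × K))
          = 1 := by
          rw [Subgroup.coe_inv, inv_mul_cancel]
        rw [this, blF_one]
        rfl), fun x y => blF_iso g.2 x y⟩
  map_one' := by
    apply Subtype.ext
    apply LinearEquiv.ext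
    intro x
    rfl
  map_mul' := by
    intro g h
    apply Subtype.ext
    apply LinearEquiv.ext
    intro x
    exact blF_mul g.2 h.2 x

theorem bl_apply (g : StO B) (x : W) :
    ((bl B g : SpG B) : W ≃ₗ[K] W) x = ((g : (K × W × K) ≃ₗ[K] (K × W × K)) (0, x, 0)).2.1 := rfl

/-- the eigenvalue -/
def lam (B : BilinForm K W) : StO B →* Kˣ where
  toFun g := Units.mk0 (lamF (g : (K × W × K) ≃ₗ[K] (K × W × K))) (lamF_ne g.2)
  map_one' := Units.ext (lamF_one (K := K) (W := W))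
  map_mul' := fun g h => Units.ext (lamF_mul g.2 h.2)

theorem lam_val (g : StO B) :
    ((lam B g : Kˣ) : K) = ((g : (K × W × K) ≃ₗ[K] (K × W × K)) (oo K W)).1 := rfl

theorem lam_spec (g : StO B) :
    (g : (K × W × K) ≃ₗ[K] (K × W × K)) (oo K W) = (lam B g : K) • oo K W := lamF_spec g.2

theorem lv_St {m : W ≃ₗ[K] W} (hm : m ∈ SpG B) (l : Kˣ) : lv m l ∈ StO B := by
  refine ⟨lv_mem hm l, l, ?_⟩
  rw [lv_apply]
  refine Prod.ext rfl (Prod.ext ?_ ?_)
  · change m 0 = (l : K) • (0 : W)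
    rw [map_zero, smul_zero]
  · change ((l⁻¹ : Kˣ) : K) * 0 = (l : K) * 0
    rw [mul_zero, mul_zero]

include hB h2 in
theorem qo_St (y : W) : qo B y ∈ StO B := by
  refine ⟨qo_mem hB h2 y, 1, ?_⟩
  rw [qo_apply]
  refine Prod.ext ?_ (Prod.ext ?_ ?_)
  · change (1 : K) - B 0 y - (2⁻¹ * B y y) * 0 = 1 * 1
    rw [map_zero, LinearMap.zero_apply]
    ring
  · change (0 : W) + (0 : K) • y = (1 : K) • (0 : W)
    rw [zero_smul, smul_zero, zero_add]
  · change (0 : K) = 1 * 0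
    rw [mul_zero]

theorem bl_lv {m : W ≃ₗ[K] W} (hm : m ∈ SpG B) (l : Kˣ) :
    bl B ⟨lv m l, lv_St hm l⟩ = ⟨m, hm⟩ := rfl

theorem lam_lv {m : W ≃ₗ[K] W} (hm : m ∈ SpG B) (l : Kˣ) :
    lam B ⟨lv m l, lv_St hm l⟩ = l := by
  apply Units.ext
  rw [lam_val]
  change (l : K) * 1 = l
  rw [mul_one]

include hB h2

theorem bl_qo (y : W) : bl B ⟨qo B y, qo_St hB h2 y⟩ = 1 := by
  apply Subtype.ext
  apply LinearEquiv.ext
  intro x
  change x + (0 : K) • y = x
  rw [zero_smul, add_zero]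

theorem lam_qo (y : W) : lam B ⟨qo B y, qo_St hB h2 y⟩ = 1 := by
  apply Units.ext
  rw [lam_val]
  change (1 : K) - B 0 y - (2⁻¹ * B y y) * 0 = 1
  rw [map_zero, LinearMap.zero_apply]
  ring

theorem exists_qo {g : StO B} (h1 : bl B g = 1) (h3 : lam B g = 1) :
    ∃ y, (g : (K × W × K) ≃ₗ[K] (K × W × K)) = qo B y := by
  obtain ⟨y, hy⟩ : ∃ y, y = ((g : (K × W × K) ≃ₗ[K] (K × W × K)) (0, 0, 1)).2.1 := ⟨_, rfl⟩
  obtain ⟨c, hc⟩ : ∃ c, c = ((g : (K × W × K) ≃ₗ[K] (K × W × K)) (0, 0, 1)).1 := ⟨_, rfl⟩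
  have hl : lamF (g : (K × W × K) ≃ₗ[K] (K × W × K)) = 1 := congrArg Units.val h3
  have e3 : (g : (K × W × K) ≃ₗ[K] (K × W × K)) (0, 0, 1) = (c, y, 1) := by
    refine Prod.ext hc.symm (Prod.ext hy.symm ?_)
    have := thd g.2 (0, 0, 1)
    rwa [hl, one_mul] at this
  have e1 : (g : (K × W × K) ≃ₗ[K] (K × W × K)) (oo K W) = oo K W := by
    rw [lamF_spec g.2, hl, one_smul]
  have e2 : ∀ x : W, (g : (K × W × K) ≃ₗ[K] (K × W × K)) (0, x, 0) = (- B x y, x, 0) := by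
    intro x
    have hb : blF (g : (K × W × K) ≃ₗ[K] (K × W × K)) x = x :=
      congrArg (fun m : SpG B => (m : W ≃ₗ[K] W) x) h1
    have h3 := form_of g.2 x
    rw [hb] at h3
    have h4 := mem_SpG.mp g.2.1 (0, x, 0) (0, 0, 1)
    rw [h3, e3, hypo_apply, hypo_apply] at h4
    simp only [mul_one, mul_zero, zero_mul, zero_add, map_zero, LinearMap.zero_apply,
      add_zero] at h4
    rw [h3]
    refine Prod.ext ?_ rfl
    exact eq_neg_of_add_eq_zero_left h4
  have e4 : c = - (2⁻¹ * B y y) := by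
    have h4 := mem_SpG.mp g.2.1 (0, 0, 1) (0, 0, 1)
    rw [e3, hypo_apply, hypo_apply] at h4
    simp only [mul_one, one_mul, mul_zero, zero_mul, add_zero, map_zero,
      LinearMap.zero_apply] at h4
    field_simp
    linear_combination h4
  refine ⟨y, LinearEquiv.ext fun u => ?_⟩
  have hu : u = u.1 • oo K W + ((0 : K), u.2.1, (0 : K)) + u.2.2 • ((0 : K), (0 : W), (1 : K)) := by
    refine Prod.ext ?_ (Prod.ext ?_ ?_)
    · change u.1 = u.1 * 1 + 0 + u.2.2 * 0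
      ring
    · change u.2.1 = u.1 • (0 : W) + u.2.1 + u.2.2 • (0 : W)
      rw [smul_zero, smul_zero, zero_add, add_zero]
    · change u.2.2 = u.1 * 0 + 0 + u.2.2 * 1
      ring
  nth_rewrite 1 [hu]
  rw [map_add, map_add, map_smul, map_smul, e1, e2, e3, qo_apply, e4]
  refine Prod.ext ?_ (Prod.ext ?_ ?_)
  · change u.1 * 1 + (- B u.2.1 y) + u.2.2 * (- (2⁻¹ * B y y)) = _
    ring
  · change u.1 • (0 : W) + u.2.1 + u.2.2 • y = _
    rw [smul_zero, zero_add]
  · change u.1 * 0 + 0 + u.2.2 * 1 = u.2.2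
    ring

theorem exists_decomp (g : StO B) : ∃ y, (g : (K × W × K) ≃ₗ[K] (K × W × K)) =
    lv (bl B g : W ≃ₗ[K] W) (lam B g) * qo B y := by
  obtain ⟨y, h⟩ := exists_qo hB h2 (g := (⟨lv (bl B g : W ≃ₗ[K] W) (lam B g),
    lv_St (bl B g).2 _⟩ : StO B)⁻¹ * g) (by
      rw [map_mul, map_inv, bl_lv (bl B g).2, inv_mul_cancel]) (by
      rw [map_mul, map_inv, lam_lv (bl B g).2, inv_mul_cancel])
  refine ⟨y, ?_⟩
  rw [← h, Subgroup.coe_mul, Subgroup.coe_inv]
  group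

omit hB h2 in
/-- the determinant of a Levi element -/
theorem det_lv [Module.Finite K W] (m : W ≃ₗ[K] W) (l : Kˣ) :
    LinearEquiv.det (lv m l) = LinearEquiv.det m := by
  have h1 : lv m l = Un.lv (RingEquiv.refl K) m l := by
    apply LinearEquiv.ext
    intro u
    rw [lv_apply, Un.lv_apply, Units.val_inv_eq_inv_val]
    rfl
  apply Units.ext
  rw [h1, Un.lv_det]
  change (l : K) * (l : K)⁻¹ * _ = _
  rw [mul_inv_cancel₀ l.ne_zero, one_mul]

end Vale.Agent.P180.R2.H589.Or
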